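import Mathlib

/-!
# The hyperinvariant subspace problem (P131): definitions
-/

namespace Vale.Agent.Lib.P131

variable {H : Type} [NormedAddCommGroup H] [InnerProductSpace ℂ H]

/-- `M` is hyperinvariant for `T`: `A M ⊆ M` for every bounded operator `A` that commutes
with `T`. -/
def IsHyperinvariant (T : H →L[ℂ] H) (M : Submodule ℂ H) : Prop :=
  ∀ A : H →L[ℂ] H, A * T = T * A → ∀ x ∈ M, A x ∈ M

/-- `T` has a nontrivial closed hyperinvariant subspace: a closed subspace `M` with
`{0} ≠ M ≠ H` that is hyperinvariant for `T`. -/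
def HasHyperinvariant (T : H →L[ℂ] H) : Prop :=
  ∃ M : Submodule ℂ H, IsClosed (M : Set H) ∧ M ≠ ⊥ ∧ M ≠ ⊤ ∧ IsHyperinvariant T M

/-- `T` is scalar: `T = c I` for some complex number `c`. -/
def IsScalar (T : H →L[ℂ] H) : Prop :=
  ∃ c : ℂ, T = c • (1 : H →L[ℂ] H)

end Vale.Agent.Lib.P131
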