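import Vale.Agent.Lib.P131.Defs

/-!
# P131: the profile of an operator without nontrivial hyperinvariant subspaces
-/

namespace Vale.Agent.Lib.P131

/-! ### EIG : an eigenvalue gives a hyperinvariant subspace -/

section Eig

variable {H : Type} [NormedAddCommGroup H] [InnerProductSpace ℂ H]

theorem taskEIG_apply (T : H →L[ℂ] H) (c : ℂ) (y : H) :
    (T - c • (1 : H →L[ℂ] H)) y = T y - c • y := rfl

theorem hasHyperinvariant_of_eigenvalue (T : H →L[ℂ] H) (hT : ¬ IsScalar T) (c : ℂ) (x : H)
    (hx : x ≠ 0) (h : T x = c • x) : HasHyperinvariant T := by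
  refine ⟨LinearMap.ker ((T - c • (1 : H →L[ℂ] H) : H →L[ℂ] H) : H →ₗ[ℂ] H), ?_, ?_, ?_, ?_⟩
  · exact ContinuousLinearMap.isClosed_ker (T - c • (1 : H →L[ℂ] H))
  · intro hM
    have hxM : x ∈ LinearMap.ker ((T - c • (1 : H →L[ℂ] H) : H →L[ℂ] H) : H →ₗ[ℂ] H) := by
      rw [LinearMap.mem_ker]
      change (T - c • (1 : H →L[ℂ] H)) x = 0
      rw [taskEIG_apply, h, sub_self]
    rw [hM, Submodule.mem_bot] at hxM
    exact hx hxM
  · intro hM
    apply hT
    refine ⟨c, ?_⟩
    ext y
    have hyM : y ∈ LinearMap.ker ((T - c • (1 : H →L[ℂ] H) : H →L[ℂ] H) : H →ₗ[ℂ] H) := by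
      rw [hM]
      exact Submodule.mem_top
    rw [LinearMap.mem_ker] at hyM
    change (T - c • (1 : H →L[ℂ] H)) y = 0 at hyM
    rw [taskEIG_apply, sub_eq_zero] at hyM
    rw [hyM]
    rfl
  · intro A hA y hy
    rw [LinearMap.mem_ker] at hy ⊢
    change (T - c • (1 : H →L[ℂ] H)) y = 0 at hy
    change (T - c • (1 : H →L[ℂ] H)) (A y) = 0
    rw [taskEIG_apply, sub_eq_zero] at hy
    have hcomm : A (T y) = T (A y) := DFunLike.congr_fun hA y
    rw [taskEIG_apply, ← hcomm, hy, map_smul, sub_self]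

theorem injective_of_not_hasHyperinvariant (T : H →L[ℂ] H) (hT : ¬ IsScalar T)
    (h : ¬ HasHyperinvariant T) (c : ℂ) :
    Function.Injective (T - c • (1 : H →L[ℂ] H)) := by
  refine (injective_iff_map_eq_zero (T - c • (1 : H →L[ℂ] H))).2 ?_
  intro y hy0
  by_contra hy
  apply h
  refine hasHyperinvariant_of_eigenvalue T hT c y hy ?_
  rw [taskEIG_apply, sub_eq_zero] at hy0
  exact hy0

end Eig

/-! ### RNG : a non-dense range gives a hyperinvariant subspace -/

section Rng

variable {H : Type} [NormedAddCommGroup H] [InnerProductSpace ℂ H]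

theorem hasHyperinvariant_of_not_denseRange (T : H →L[ℂ] H) (hT : ¬ IsScalar T) (c : ℂ)
    (h : ¬ DenseRange (T - c • (1 : H →L[ℂ] H))) : HasHyperinvariant T := by
  have hcoe : ((LinearMap.range ((T - c • (1 : H →L[ℂ] H) : H →L[ℂ] H) : H →ₗ[ℂ] H)).topologicalClosure
      : Set H) = closure (Set.range (T - c • (1 : H →L[ℂ] H))) := by
    rw [Submodule.topologicalClosure_coe]
    congr 1
  refine ⟨(LinearMap.range ((T - c • (1 : H →L[ℂ] H) : H →L[ℂ] H) : H →ₗ[ℂ] H)).topologicalClosure,
    Submodule.isClosed_topologicalClosure _, ?_, ?_, ?_⟩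
  · intro hbot
    apply hT
    refine ⟨c, ?_⟩
    ext y
    have hy : (T - c • (1 : H →L[ℂ] H)) y ∈
        (LinearMap.range ((T - c • (1 : H →L[ℂ] H) : H →L[ℂ] H) : H →ₗ[ℂ] H)).topologicalClosure :=
      Submodule.le_topologicalClosure _ ⟨y, rfl⟩
    rw [hbot, Submodule.mem_bot] at hy
    have h0 : T y - c • y = 0 := by
      simpa using hy
    have h1 : (c • (1 : H →L[ℂ] H)) y = c • y := by
      simp
    rw [h1]
    exact sub_eq_zero.mp h0
  · intro htop
    apply h
    have hd : Dense ((LinearMap.range ((T - c • (1 : H →L[ℂ] H) : H →L[ℂ] H) : H →ₗ[ℂ] H)).topologicalClosure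
        : Set H) := by
      rw [htop]
      simp
    rw [hcoe] at hd
    exact dense_closure.mp hd
  · intro A hA x hx
    have hcomm : ∀ y, A ((T - c • (1 : H →L[ℂ] H)) y) = (T - c • (1 : H →L[ℂ] H)) (A y) := by
      intro y
      have h1 : A (T y) = T (A y) := by
        have := DFunLike.congr_fun hA y
        simpa using this
      simp [h1]
    have hx' : x ∈ closure (Set.range (T - c • (1 : H →L[ℂ] H))) := by
      rw [← hcoe]
      exact hx
    have hAx : A x ∈ closure (Set.range (T - c • (1 : H →L[ℂ] H))) := by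
      refine map_mem_closure A.continuous hx' ?_
      rintro z ⟨y, rfl⟩
      exact ⟨A y, (hcomm y).symm⟩
    have h2 : A x ∈ ((LinearMap.range ((T - c • (1 : H →L[ℂ] H) : H →L[ℂ] H) : H →ₗ[ℂ] H)).topologicalClosure
        : Set H) := by
      rw [hcoe]
      exact hAx
    exact h2

end Rng

/-! ### COMM : operators in the double commutant -/

section Comm

variable {H : Type} [NormedAddCommGroup H] [InnerProductSpace ℂ H]

theorem hasHyperinvariant_of_bicommutant (T B : H →L[ℂ] H)
    (hB : ∀ A : H →L[ℂ] H, A * T = T * A → A * B = B * A) (h : HasHyperinvariant B) :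
    HasHyperinvariant T := by
  obtain ⟨M, hcl, hbot, htop, hinv⟩ := h
  exact ⟨M, hcl, hbot, htop, fun A hA x hx => hinv A (hB A hA) x hx⟩

end Comm

/-! ### ADJ : the adjoint operator -/

section Adj

variable {H : Type} [NormedAddCommGroup H] [InnerProductSpace ℂ H] [CompleteSpace H]

theorem taskADJ_comm (T A : H →L[ℂ] H)
    (hA : A * ContinuousLinearMap.adjoint T = ContinuousLinearMap.adjoint T * A) :
    ContinuousLinearMap.adjoint A * T = T * ContinuousLinearMap.adjoint A := by
  have h := congrArg ContinuousLinearMap.adjoint hA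
  rw [ContinuousLinearMap.mul_def, ContinuousLinearMap.mul_def,
    ContinuousLinearMap.adjoint_comp, ContinuousLinearMap.adjoint_comp,
    ContinuousLinearMap.adjoint_adjoint] at h
  exact h.symm

theorem hasHyperinvariant_adjoint (T : H →L[ℂ] H) (h : HasHyperinvariant T) :
    HasHyperinvariant (ContinuousLinearMap.adjoint T) := by
  obtain ⟨M, hcl, hbot, htop, hinv⟩ := h
  have hcomp : CompleteSpace M := hcl.completeSpace_coe
  refine ⟨M.orthogonal, Submodule.isClosed_orthogonal M, ?_, ?_, ?_⟩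
  · intro h0
    exact htop (Submodule.orthogonal_eq_bot_iff.mp h0)
  · intro h0
    exact hbot ((Submodule.orthogonal_eq_top_iff M).mp h0)
  · intro A hA y hy
    have hc := taskADJ_comm T A hA
    rw [Submodule.mem_orthogonal]
    intro u hu
    have hu' : ContinuousLinearMap.adjoint A u ∈ M := hinv _ hc u hu
    rw [← ContinuousLinearMap.adjoint_inner_left]
    exact (Submodule.mem_orthogonal M y).mp hy _ hu'

theorem hasHyperinvariant_adjoint_iff (T : H →L[ℂ] H) :
    HasHyperinvariant (ContinuousLinearMap.adjoint T) ↔ HasHyperinvariant T := by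
  constructor
  · intro h
    have h2 := hasHyperinvariant_adjoint (ContinuousLinearMap.adjoint T) h
    rwa [ContinuousLinearMap.adjoint_adjoint] at h2
  · exact hasHyperinvariant_adjoint T

theorem taskADJ_scalar (T : H →L[ℂ] H) (h : IsScalar T) :
    IsScalar (ContinuousLinearMap.adjoint T) := by
  obtain ⟨c, rfl⟩ := h
  refine ⟨starRingEnd ℂ c, ?_⟩
  rw [← ContinuousLinearMap.star_eq_adjoint, star_smul, star_one]
  rfl

theorem isScalar_adjoint_iff (T : H →L[ℂ] H) :
    IsScalar (ContinuousLinearMap.adjoint T) ↔ IsScalar T := by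
  constructor
  · intro h
    have h2 := taskADJ_scalar _ h
    rwa [ContinuousLinearMap.adjoint_adjoint] at h2
  · exact taskADJ_scalar T

end Adj

/-! ### SIM : similar operators -/

section Sim

variable {H : Type} [NormedAddCommGroup H] [InnerProductSpace ℂ H]

theorem hasHyperinvariant_conj (T : H →L[ℂ] H) (S : H ≃L[ℂ] H) (h : HasHyperinvariant T) :
    HasHyperinvariant ((S : H →L[ℂ] H) * T * (S.symm : H →L[ℂ] H)) := by
  obtain ⟨M, hcl, hbot, htop, hinv⟩ := h
  refine ⟨M.comap (S.symm : H →ₗ[ℂ] H), ?_, ?_, ?_, ?_⟩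
  · have hset : ((M.comap (S.symm : H →ₗ[ℂ] H) : Submodule ℂ H) : Set H)
        = S.symm ⁻¹' (M : Set H) := rfl
    rw [hset]
    exact hcl.preimage S.symm.continuous
  · obtain ⟨x, hxM, hx0⟩ := Submodule.exists_mem_ne_zero_of_ne_bot hbot
    intro hN
    have hSx : S x ∈ M.comap (S.symm : H →ₗ[ℂ] H) := by
      show S.symm (S x) ∈ M
      rw [S.symm_apply_apply]
      exact hxM
    rw [hN, Submodule.mem_bot] at hSx
    exact hx0 (S.map_eq_zero_iff.mp hSx)
  · intro hN
    apply htop
    rw [Submodule.eq_top_iff']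
    intro y
    have hSy : S y ∈ M.comap (S.symm : H →ₗ[ℂ] H) := by
      rw [hN]
      exact Submodule.mem_top
    have hy : S.symm (S y) ∈ M := hSy
    rwa [S.symm_apply_apply] at hy
  · intro A hA z hz
    have hz' : S.symm z ∈ M := hz
    show S.symm (A z) ∈ M
    have hcomm : ((S.symm : H →L[ℂ] H) * A * (S : H →L[ℂ] H)) * T
        = T * ((S.symm : H →L[ℂ] H) * A * (S : H →L[ℂ] H)) := by
      ext x
      have h1 := DFunLike.congr_fun hA (S x)
      simp only [mul_apply_eq_comp, ContinuousLinearEquiv.coe_coe,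
        ContinuousLinearEquiv.symm_apply_apply] at h1 ⊢
      rw [h1, S.symm_apply_apply]
    have h2 := hinv _ hcomm (S.symm z) hz'
    simp only [mul_apply_eq_comp, ContinuousLinearEquiv.coe_coe,
      ContinuousLinearEquiv.apply_symm_apply] at h2
    exact h2

theorem hasHyperinvariant_conj_iff (T : H →L[ℂ] H) (S : H ≃L[ℂ] H) :
    HasHyperinvariant ((S : H →L[ℂ] H) * T * (S.symm : H →L[ℂ] H)) ↔ HasHyperinvariant T := by
  constructor
  · intro h
    have h2 := hasHyperinvariant_conj ((S : H →L[ℂ] H) * T * (S.symm : H →L[ℂ] H)) S.symm h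
    have heq : ((S.symm : H →L[ℂ] H) * ((S : H →L[ℂ] H) * T * (S.symm : H →L[ℂ] H))
        * (S.symm.symm : H →L[ℂ] H)) = T := by
      ext x
      simp
    rwa [heq] at h2
  · exact hasHyperinvariant_conj T S

theorem isScalar_conj_iff (T : H →L[ℂ] H) (S : H ≃L[ℂ] H) :
    IsScalar ((S : H →L[ℂ] H) * T * (S.symm : H →L[ℂ] H)) ↔ IsScalar T := by
  constructor
  · rintro ⟨c, hc⟩
    refine ⟨c, ?_⟩
    ext x
    have h1 := DFunLike.congr_fun hc (S x)
    simp only [mul_apply_eq_comp, ContinuousLinearEquiv.coe_coe,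
      ContinuousLinearEquiv.symm_apply_apply, smul_apply,
      one_apply_eq_self] at h1
    have h2 : T x = S.symm (c • S x) := by rw [← h1, S.symm_apply_apply]
    rw [h2]
    simp
  · rintro ⟨c, hc⟩
    refine ⟨c, ?_⟩
    rw [hc]
    ext x
    simp

end Sim

end Vale.Agent.Lib.P131
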